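import Vale.Agent.P062.Near.Top
import Vale.Agent.P062.Partial

namespace Vale.Agent.Results.P062.AllButOrthogonal

open Vale.Agent.P062

/-- After Maker's first cell at the origin, every reply of Breaker other than the four orthogonal
neighbours of that cell loses: Maker then forces a win within 16 further turns. -/
theorem result :
    ∀ b : ℤ × ℤ, 2 ≤ |b.1| + |b.2| →
      MakerWinsIn 16 {((0 : ℤ), (0 : ℤ))} {b} :=
  near_replies_of_holds 16 Near.finalI _ Near.finalHolds (by decide +kernel)

end Vale.Agent.Results.P062.AllButOrthogonal
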