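import Vale.Agent.P062.Far.Top

namespace Vale.Agent.Results.P062.FarReplies

open Vale.Agent.P062

/-- After Maker's first cell at the origin, every reply of Breaker at king distance at least two
from it loses: Maker then forces a win within 13 further turns. -/
theorem result :
    ∀ b : ℤ × ℤ, (2 ≤ |b.1| ∨ 2 ≤ |b.2|) →
      MakerWinsIn 13 {((0 : ℤ), (0 : ℤ))} {b} :=
  far_replies_of_holds 13 Far.finalI _ Far.finalHolds (by decide +kernel)

end Vale.Agent.Results.P062.FarReplies
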