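import Vale.Agent.P062.Near.Top
import Vale.Agent.P062.Lvl2.Top
import Vale.Agent.P062.Reduce

namespace Vale.Agent.Results.P062.OneLineLeft

open Vale.Agent.P062

/-- After Maker's cells `(0,0)`, `(0,1)` and Breaker's `(1,0)`, every Breaker reply except `(0,2)`
loses; and if Maker also wins the one remaining position, Maker wins the whole game. -/
theorem result :
    (∀ b : Cell, b ≠ (0, 0) → b ≠ (0, 1) → b ≠ (1, 0) → b ≠ (0, 2) →
      MakerWinsIn 18 {((0 : ℤ), (0 : ℤ)), (0, 1)} {(1, 0), b}) ∧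
    (∀ n : ℕ, MakerWinsIn n {((0 : ℤ), (0 : ℤ)), (0, 1)} {(1, 0), (0, 2)} →
      MakerWinsIn (max n 18 + 2) ∅ ∅) := by
  have hI : Lvl2.finalI = Nat.shiftLeft 1 178 := by decide +kernel
  have hsec : ∀ b : Cell, b ≠ (0, 0) → b ≠ (0, 1) → b ≠ (1, 0) → b ≠ (0, 2) →
      MakerWinsIn 18 {((0 : ℤ), (0 : ℤ)), (0, 1)} {(1, 0), b} := by
    intro b h00 h01 h10 h02
    refine second_level_of_holds 18 _ Lvl2.finalI Lvl2.finalU Lvl2.finalHolds
      (by decide +kernel) (by decide +kernel) b ?_ h00 h01 h10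
    rw [hI]
    intro hb
    obtain ⟨i, hi, hc⟩ := mem_cells.1 hb
    rw [testBit_oneShift] at hi
    have hi' : 178 = i := by simpa using hi
    subst hi'
    apply h02
    rw [← hc]
    simp only [cellOf, Prod.mk.injEq]
    constructor <;> norm_num
  refine ⟨hsec, fun n hA => ?_⟩
  apply win_of_levels (max n 18)
  · intro b hb
    exact MakerWinsIn.mono (by omega) (near_replies_of_holds 16 Near.finalI _ Near.finalHolds
      (by decide +kernel) b hb)
  · intro b h00 h01 h10
    by_cases h02 : b = (0, 2)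
    · rw [h02]
      exact MakerWinsIn.mono (by omega) hA
    · exact MakerWinsIn.mono (by omega) (hsec b h00 h01 h10 h02)

end Vale.Agent.Results.P062.OneLineLeft
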